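import Vale.Agent.Snaky.Data.C0
import Vale.Agent.Snaky.Data.C1
import Vale.Agent.Snaky.Data.C2
import Vale.Agent.Snaky.Data.C3
import Vale.Agent.Snaky.Root

namespace Vale.Agent.Snaky

theorem cert_ok : cert.all (chkPat cert.get) = true :=
  (Tr.all_node (Tr.all_node (Tr.all_node (Tr.all_node (Tr.all_node ok0 ok1) (Tr.all_node ok2 ok3)) (Tr.all_node (Tr.all_node ok4 ok5) (Tr.all_node ok6 ok7))) (Tr.all_node (Tr.all_node (Tr.all_node ok8 ok9) (Tr.all_node ok10 ok11)) (Tr.all_node (Tr.all_node ok12 ok13) (Tr.all_node ok14 ok15)))) (Tr.all_node (Tr.all_node (Tr.all_node (Tr.all_node ok16 ok17) (Tr.all_node ok18 ok19)) (Tr.all_node (Tr.all_node ok20 ok21) (Tr.all_node ok22 ok23))) (Tr.all_node (Tr.all_node (Tr.all_node ok24 rfl) rfl) rfl)))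

/-- the answers to Breaker's first reply -/
def rootT : Ans :=
  (.cons (nat_lit 750) (nat_lit 8) (nat_lit 512) (.cons (nat_lit 718) (nat_lit 9) (nat_lit 512) (.cons (nat_lit 718) (nat_lit 10) (nat_lit 512) (.cons (nat_lit 718) (nat_lit 11) (nat_lit 512) (.cons (nat_lit 719) (nat_lit 12) (nat_lit 512) (.cons (nat_lit 783) (nat_lit 12) (nat_lit 544) (.cons (nat_lit 718) (nat_lit 13) (nat_lit 512) (.cons (nat_lit 719) (nat_lit 14) (nat_lit 512) .nil))))))))

/-- the replies `(x, y)` with `0 ≤ y ≤ x ≤ 16`, `(x, y) ≠ (0, 0)`, that are treated -/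
def rootOct : ℕ := 0x80000000c0000000e0000000f0000000f8000000fc000000fe000000ff000000ff800000ffc00000ffe00000fff00000fff80000fffc0000fffe0000ffff0000fffe000000000000000000000000000000000000000000000000000000000000

theorem root_ok : chkList cert.get (11 + 1) (Nat.shiftLeft (1 <<< oIdx) 512) (Nat.shiftLeft fullMask 512)
    rootT (Nat.shiftLeft rootOct 512) = true := by decide +kernel

end Vale.Agent.Snaky
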