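import Vale.Agent.Snaky.Data.D0
import Vale.Agent.Snaky.Data.D1
import Vale.Agent.Snaky.Data.D2
import Vale.Agent.Snaky.Data.D3
import Vale.Agent.Snaky.Data.D4
import Vale.Agent.Snaky.Data.D5
import Vale.Agent.Snaky.Data.D6
import Vale.Agent.Snaky.Data.D7
import Vale.Agent.Snaky.Data.D8
import Vale.Agent.Snaky.Data.D9
import Vale.Agent.Snaky.Data.D10
import Vale.Agent.Snaky.Data.D11
import Vale.Agent.Snaky.Data.D12
import Vale.Agent.Snaky.Data.D13
import Vale.Agent.Snaky.Data.D14
import Vale.Agent.Snaky.Data.D15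
import Vale.Agent.Snaky.Data.D16
import Vale.Agent.Snaky.Data.D17
import Vale.Agent.Snaky.Data.D18
import Vale.Agent.Snaky.Data.D19
import Vale.Agent.Snaky.Data.D20
import Vale.Agent.Snaky.Data.D21
import Vale.Agent.Snaky.Data.D22
import Vale.Agent.Snaky.Data.D23
import Vale.Agent.Snaky.Data.D24

namespace Vale.Agent.Snaky

/-- the certificate -/
def cert : Tr :=
(.node (nat_lit 4096) (.node (nat_lit 2048) (.node (nat_lit 1024) (.node (nat_lit 512) (.node (nat_lit 256) d0 d1) (.node (nat_lit 256) d2 d3)) (.node (nat_lit 512) (.node (nat_lit 256) d4 d5) (.node (nat_lit 256) d6 d7))) (.node (nat_lit 1024) (.node (nat_lit 512) (.node (nat_lit 256) d8 d9) (.node (nat_lit 256) d10 d11)) (.node (nat_lit 512) (.node (nat_lit 256) d12 d13) (.node (nat_lit 256) d14 d15)))) (.node (nat_lit 2048) (.node (nat_lit 1024) (.node (nat_lit 512) (.node (nat_lit 256) d16 d17) (.node (nat_lit 256) d18 d19)) (.node (nat_lit 512) (.node (nat_lit 256) d20 d21) (.node (nat_lit 256) d22 d23))) (.node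 (nat_lit 1024) (.node (nat_lit 512) (.node (nat_lit 256) d24 .nil) .nil) .nil)))

end Vale.Agent.Snaky
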