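import Vale.Agent.Snaky.Sound
import Vale.Agent.Snaky.Data.Cert

namespace Vale.Agent.Snaky

theorem ok0 : d0.all (chkPat cert.get) = true := by decide +kernel

theorem ok4 : d4.all (chkPat cert.get) = true := by decide +kernel

theorem ok8 : d8.all (chkPat cert.get) = true := by decide +kernel

theorem ok12 : d12.all (chkPat cert.get) = true := by decide +kernel

theorem ok16 : d16.all (chkPat cert.get) = true := by decide +kernel

theorem ok20 : d20.all (chkPat cert.get) = true := by decide +kernel

theorem ok24 : d24.all (chkPat cert.get) = true := by decide +kernel

end Vale.Agent.Snaky
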